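import Vale.Agent.P082.ListD

/-!
Multilinear bounded functions on lists and the bridge to `ContinuousMultilinearMap`.
-/

namespace Vale.Agent.P082

variable {R : Type*} [NormedRing R] [NormedAlgebra ℂ R]

/-- Multilinear functions on lists. -/
def ML (F : List R → R) : Prop :=
  ∀ l₁ l₂ : List R, IsLinearMap ℂ fun a => F (l₁ ++ a :: l₂)

/-- Product of the norms. -/
noncomputable def np (l : List R) : ℝ := (l.map norm).prod

/-- Bounded functions on lists. -/
def Bd (F : List R → R) (K : ℝ) : Prop := ∀ l, ‖F l‖ ≤ K * np l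

omit [NormedAlgebra ℂ R] in
theorem np_nil : np ([] : List R) = 1 := rfl

omit [NormedAlgebra ℂ R] in
theorem np_cons (a : R) (l : List R) : np (a :: l) = ‖a‖ * np l := by simp [np]

omit [NormedAlgebra ℂ R] in
theorem np_nonneg (l : List R) : 0 ≤ np l := by
  induction l with
  | nil => simp [np]
  | cons a l ih => rw [np_cons]; positivity

omit [NormedAlgebra ℂ R] in
theorem np_map_le {Θ : R → R} (h : ∀ x, ‖Θ x‖ ≤ ‖x‖) (l : List R) : np (l.map Θ) ≤ np l := by
  induction l with
  | nil => simp
  | cons a l ih =>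
    rw [List.map_cons, np_cons, np_cons]
    exact mul_le_mul (h a) ih (np_nonneg _) (norm_nonneg _)

omit [NormedAlgebra ℂ R] in
theorem np_ofFn {k : ℕ} (v : Fin k → R) : np (List.ofFn v) = ∏ i, ‖v i‖ := by
  simp [np, List.map_ofFn, List.prod_ofFn]

theorem ML.cons {F : List R → R} (h : ML F) (x : R) : ML fun l => F (x :: l) :=
  fun l₁ l₂ => h (x :: l₁) l₂

theorem ML.head {F : List R → R} (h : ML F) (l : List R) : IsLinearMap ℂ fun a => F (a :: l) :=
  h [] l

theorem ML.map {F : List R → R} (h : ML F) {Θ : R → R} (hΘ : IsLinearMap ℂ Θ) :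
    ML fun l => F (l.map Θ) := fun l₁ l₂ => by
  simp only [List.map_append, List.map_cons]
  exact ⟨fun a b => by rw [hΘ.map_add, (h _ _).map_add],
    fun c a => by rw [hΘ.map_smul, (h _ _).map_smul]⟩

omit [NormedAlgebra ℂ R] in
theorem Bd.cons {F : List R → R} {K : ℝ} (h : Bd F K) (x : R) :
    Bd (fun l => F (x :: l)) (K * ‖x‖) := fun l => by
  rw [mul_assoc, ← np_cons]
  exact h _

theorem prism_smul {Θ : R → R} {σ : R} (l : List R) (c : ℂ) (F : List R → R) :
    prism Θ σ l (fun l => c • F l) = c • prism Θ σ l F := by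
  simp only [Algebra.smul_def, prism_mul_left]

theorem ML.prism {Θ : R → R} (hΘ : IsLinearMap ℂ Θ) (σ : R) {F : List R → R} (h : ML F) :
    ML fun l => prism Θ σ l F := by
  intro l₁ l₂
  induction l₁ generalizing F with
  | nil =>
    simp only [List.nil_append, P082.prism]
    constructor
    · intro a b
      have h1 := (h [σ] (l₂.map Θ)).map_add (Θ a) (Θ b)
      simp only [List.cons_append, List.nil_append] at h1
      simp only [hΘ.map_add, h1, (h.head _).map_add, prism_add]
      abel
    · intro c a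
      have h1 := (h [σ] (l₂.map Θ)).map_smul c (Θ a)
      simp only [List.cons_append, List.nil_append] at h1
      simp only [hΘ.map_smul, h1, (h.head _).map_smul, prism_smul, smul_sub]
  | cons x l₁ ih =>
    have h1 := ((h.cons σ).map hΘ) (x :: l₁) l₂
    have h2 := ih (h.cons x)
    simp only [List.cons_append, P082.prism, List.map_cons] at h1 h2 ⊢
    exact ⟨fun a b => by rw [h1.map_add, h2.map_add]; abel,
      fun c a => by rw [h1.map_smul, h2.map_smul, smul_sub]⟩

omit [NormedAlgebra ℂ R] in
theorem norm_prism_le {Θ : R → R} (hΘ : ∀ x, ‖Θ x‖ ≤ ‖x‖) {σ : R} (hσ : ‖σ‖ ≤ 1) (l : List R)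
    {F : List R → R} {K : ℝ} (hK : 0 ≤ K) (h : Bd F K) :
    ‖prism Θ σ l F‖ ≤ (l.length + 1) * K * np l := by
  induction l generalizing F K with
  | nil =>
    have := h [σ]
    rw [np_cons, np_nil] at this
    simp only [prism, np_nil, List.length_nil, Nat.cast_zero, zero_add, one_mul, mul_one] at this ⊢
    exact this.trans (mul_le_of_le_one_right hK hσ)
  | cons x l ih =>
    have h1 := h (σ :: Θ x :: l.map Θ)
    have h2 := ih (by positivity) (h.cons x)
    have h3 : np (σ :: Θ x :: l.map Θ) ≤ np (x :: l) := by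
      rw [np_cons]
      exact (mul_le_of_le_one_left (np_nonneg _) hσ).trans (np_map_le hΘ (x :: l))
    have h4 := mul_le_mul_of_nonneg_left h3 hK
    simp only [prism, List.length_cons, np_cons] at h4 ⊢
    refine (norm_sub_le _ _).trans ?_
    push_cast
    simp only [np_cons] at h1
    nlinarith

omit [NormedAlgebra ℂ R] [NormedRing R] in
theorem ofFn_update {k : ℕ} (v : Fin k → R) (i : Fin k) :
    ∃ l₁ l₂ : List R, ∀ a, List.ofFn (Function.update v i a) = l₁ ++ a :: l₂ := by
  induction k with
  | zero => exact i.elim0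
  | succ k ih =>
    refine Fin.cases ?_ (fun j => ?_) i
    · exact ⟨[], List.ofFn fun j => v j.succ, fun a => by
        simp [List.ofFn_succ]⟩
    · obtain ⟨l₁, l₂, h⟩ := ih (fun j => v j.succ) j
      refine ⟨v 0 :: l₁, l₂, fun a => ?_⟩
      rw [List.ofFn_succ, Function.update_of_ne (Fin.succ_ne_zero _).symm, List.cons_append, ← h a]
      congr 2
      funext t
      by_cases ht : t = j
      · subst ht
        simp
      · rw [Function.update_of_ne ht, Function.update_of_ne fun h => ht (Fin.succ_inj.1 h)]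

/-- From lists to multilinear maps. -/
theorem exists_multi {G : List R → R} (h : ML G) (k : ℕ) {K : ℝ}
    (hK : ∀ l, l.length = k → ‖G l‖ ≤ K * np l) :
    ∃ g : ContinuousMultilinearMap ℂ (fun _ : Fin k => R) R, ∀ v, g v = G (List.ofFn v) := by
  let g₀ : MultilinearMap ℂ (fun _ : Fin k => R) R :=
    { toFun := fun v => G (List.ofFn v)
      map_update_add' := fun {inst} v i a b => by
        obtain rfl : inst = instDecidableEqFin k := Subsingleton.elim _ _
        obtain ⟨l₁, l₂, e⟩ := ofFn_update v i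
        rw [e, e, e, (h l₁ l₂).map_add]
      map_update_smul' := fun {inst} v i c a => by
        obtain rfl : inst = instDecidableEqFin k := Subsingleton.elim _ _
        obtain ⟨l₁, l₂, e⟩ := ofFn_update v i
        rw [e, e, (h l₁ l₂).map_smul] }
  refine ⟨g₀.mkContinuous K fun v => ?_, fun v => rfl⟩
  rw [← np_ofFn]
  exact hK _ (by simp)

/-- From multilinear maps to lists. -/
theorem exists_list {k : ℕ} (f : ContinuousMultilinearMap ℂ (fun _ : Fin k => R) R) :
    ∃ F : List R → R, ML F ∧ Bd F ‖f‖ ∧ ∀ v, F (List.ofFn v) = f v := by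
  classical
  refine ⟨fun l => if h : l.length = k then f (fun i => l[(i : ℕ)]'(h ▸ i.2)) else 0, ?_, ?_, ?_⟩
  · intro l₁ l₂
    by_cases hk : l₁.length + (l₂.length + 1) = k
    · have hl : ∀ a : R, (l₁ ++ a :: l₂).length = k := fun a => by simpa using hk
      have hi : l₁.length < k := by omega
      have e : ∀ a : R, (fun i : Fin k => (l₁ ++ a :: l₂)[(i : ℕ)]'(hl a ▸ i.2)) =
          Function.update (fun i : Fin k => (l₁ ++ 0 :: l₂)[(i : ℕ)]'(hl 0 ▸ i.2))
            ⟨l₁.length, hi⟩ a := by
        intro a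
        funext i
        by_cases h : i = ⟨l₁.length, hi⟩
        · subst h
          simp
        · rw [Function.update_of_ne h]
          have h' : (i : ℕ) ≠ l₁.length := fun e => h (Fin.ext e)
          simp only [List.getElem_append]
          split_ifs with h1
          · rfl
          · obtain ⟨t, ht⟩ : ∃ t, (i : ℕ) - l₁.length = t + 1 := ⟨i - l₁.length - 1, by omega⟩
            simp only [ht, List.getElem_cons_succ]
      simp only [dif_pos (hl _)]
      exact ⟨fun a b => by rw [e, e a, e b, f.map_update_add],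
        fun c a => by rw [e, e a, f.map_update_smul]⟩
    · have hl : ∀ a : R, ¬(l₁ ++ a :: l₂).length = k := fun a => by simpa using hk
      simp only [dif_neg (hl _)]
      exact ⟨fun _ _ => by simp, fun _ _ => by simp⟩
  · intro l
    by_cases h : l.length = k
    · subst h
      simp only [dif_pos]
      refine (f.le_opNorm _).trans (le_of_eq ?_)
      rw [← np_ofFn]
      simp
    · simp only [dif_neg h, norm_zero]
      exact mul_nonneg (norm_nonneg _) (np_nonneg _)
  · intro v
    simp

theorem inner_eq_D {k : ℕ} (F : List R → R) (v : Fin (k + 1) → R) :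
    ∑ j : Fin k, (-1 : ℂ) ^ ((j : ℕ) + 1) •
        F (List.ofFn (Fin.contractNth j.castSucc (· * ·) v)) +
      (-1 : ℂ) ^ (k + 1) • (F (List.ofFn (Fin.init v)) * v (Fin.last k)) =
      -D (List.ofFn (Fin.tail v)) F (v 0) := by
  induction k generalizing F with
  | zero => simp [D]
  | succ k ih =>
    have h := ih (fun l => F (v 0 :: l)) (Fin.tail v)
    have e0 : List.ofFn (Fin.contractNth (0 : Fin (k + 1)).castSucc (· * ·) v) =
        v 0 * v 1 :: List.ofFn (Fin.tail (Fin.tail v)) := by
      rw [List.ofFn_succ]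
      congr 1
    have e1 : ∀ j : Fin k, List.ofFn (Fin.contractNth j.succ.castSucc (· * ·) v) =
        v 0 :: List.ofFn (Fin.contractNth j.castSucc (· * ·) (Fin.tail v)) := by
      intro j
      rw [List.ofFn_succ]
      congr 2
      funext t
      simp only [Fin.contractNth, Fin.tail, Fin.val_succ, Fin.val_castSucc, Nat.succ_lt_succ_iff,
        Nat.add_right_cancel_iff, Fin.succ_castSucc]
    have e2 : List.ofFn (Fin.init v) = v 0 :: List.ofFn (Fin.init (Fin.tail v)) := by
      rw [List.ofFn_succ]
      rfl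
    have e3 : List.ofFn (Fin.tail v) = v 1 :: List.ofFn (Fin.tail (Fin.tail v)) := by
      rw [List.ofFn_succ]
      rfl
    rw [Fin.sum_univ_succ, e0, e2, e3]
    simp only [e1, D]
    have e4 : Fin.tail v 0 = v 1 := rfl
    have e5 : Fin.tail v (Fin.last k) = v (Fin.last (k + 1)) := rfl
    rw [e4, e5] at h
    rw [neg_sub, ← neg_neg (D _ _ _), ← h]
    simp only [Fin.val_succ, Fin.val_zero, pow_succ, mul_neg, mul_one, neg_smul, neg_neg,
      Finset.sum_neg_distrib, pow_zero, one_smul]
    abel

theorem hochD_eq {k : ℕ} (f : ContinuousMultilinearMap ℂ (fun _ : Fin k => R) R)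
    {F : List R → R} (h : ∀ v, F (List.ofFn v) = f v) (v : Fin (k + 1) → R) :
    hochD f v = v 0 * F (List.ofFn (Fin.tail v)) - D (List.ofFn (Fin.tail v)) F (v 0) := by
  unfold hochD
  simp only [← h]
  rw [add_assoc, inner_eq_D, sub_eq_add_neg]

/-- Reduction of the theorem to functions on lists. -/
theorem vanish_of_list {n : ℕ}
    (H : ∀ (F : List R → R) (K : ℝ), 0 ≤ K → ML F → Bd F K →
      (∀ a l, l.length = n + 1 → D l F a = a * F l) →
      ∃ (G : List R → R) (K' : ℝ), ML G ∧ (∀ l, l.length = n → ‖G l‖ ≤ K' * np l) ∧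
        ∀ x l, l.length = n → F (x :: l) = x * G l - D l G x)
    (f : ContinuousMultilinearMap ℂ (fun _ : Fin (n + 1) => R) R) (hf : ∀ a, hochD f a = 0) :
    ∃ g : ContinuousMultilinearMap ℂ (fun _ : Fin n => R) R, ∀ a, hochD g a = f a := by
  obtain ⟨F, h1, h2, h3⟩ := exists_list f
  obtain ⟨G, K', h4, h5, h6⟩ := H F _ (norm_nonneg f) h1 h2 fun a l hl => by
    obtain ⟨w, rfl⟩ : ∃ w : Fin (n + 1) → R, List.ofFn w = l :=
      ⟨fun i => l[(i : ℕ)]'(by have := i.2; omega), by
        apply List.ext_getElem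
        · simp [hl]
        · intro i h1 h2
          rw [List.getElem_ofFn]⟩
    have := hf (Fin.cons a w)
    rw [hochD_eq f h3, sub_eq_zero] at this
    simp only [Fin.tail_cons, Fin.cons_zero] at this
    exact this.symm
  obtain ⟨g, hg⟩ := exists_multi h4 n h5
  refine ⟨g, fun a => ?_⟩
  rw [hochD_eq g fun v => (hg v).symm, ← h6 _ _ (by simp), ← h3, List.ofFn_succ]
  rfl

end Vale.Agent.P082
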