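import Vale.Agent.P082.Level
import Vale.Agent.P082.ListM

/-!
The starting point: a cochain which is bounded at level `N` in the first variable on the properly
infinite part.
-/

namespace Vale.Agent.P082

open Vale.Agent.P104 Finset
open scoped InnerProductSpace

section Alg

variable {R : Type*} [NormedRing R] [NormedAlgebra ℂ R] [StarRing R] {I : Type*} [Fintype I]

/-- The diagonal homomorphism. -/
noncomputable def dg (s : I → R) (x : R) : R := ∑ i, s i * x * star (s i)

/-- The starting cochain. -/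
noncomputable def startF (s : I → R) (z : R) (F : List R → R) : List R → R
  | [] => 0
  | x :: l =>
    ((Fintype.card I : ℂ)⁻¹ * (Fintype.card I : ℂ)⁻¹) •
        ∑ j, ∑ i, star (s j) * F (s j * x * star (s i) :: l.map (dg s)) * s i -
      x * (Fintype.card I : ℂ)⁻¹ • ∑ i, prism (dg s) (star (s i)) l F * s i +
      (1 - z) * F (x :: l)

theorem dg_linear (s : I → R) : IsLinearMap ℂ (dg s) :=
  ⟨fun a b => by simp only [dg, mul_add, add_mul, sum_add_distrib],
    fun c a => by simp only [dg, mul_smul_comm, smul_mul_assoc, smul_sum]⟩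

theorem startF_ml (s : I → R) (z : R) {F : List R → R} (h : ML F) : ML (startF s z F) := by
  intro l₁ l₂
  cases l₁ with
  | nil =>
    simp only [List.nil_append, startF]
    exact ⟨fun a b => by
        simp only [mul_add, add_mul, (h.head _).map_add, sum_add_distrib, smul_add]; abel,
      fun c a => by
        simp only [mul_smul_comm, smul_mul_assoc, (h.head _).map_smul, ← smul_sum, smul_add,
          smul_sub, smul_comm c]⟩
  | cons x l₁ =>
    have h1 := fun y => ((h.cons y).map (dg_linear s)) l₁ l₂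
    have h2 := fun σ => (h.prism (dg_linear s) σ) l₁ l₂
    have h3 := h.cons x l₁ l₂
    simp only [List.cons_append, startF]
    exact ⟨fun a b => by
        simp only [(h1 _).map_add, (h2 _).map_add, h3.map_add, mul_add, add_mul, sum_add_distrib,
          smul_add]; abel,
      fun c a => by
        simp only [(h1 _).map_smul, (h2 _).map_smul, h3.map_smul, mul_smul_comm, smul_mul_assoc,
          ← smul_sum, smul_add, smul_sub, smul_comm c]⟩

variable [DecidableEq I] {s : I → R} {z : R}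

omit [NormedAlgebra ℂ R] in
theorem dg_mul_s (hs : ∀ a b, star (s a) * s b = if a = b then z else 0) (hsz : ∀ a, s a * z = s a)
    (hz : ∀ x, z * x = x * z) (x : R) (i : I) : dg s x * s i = s i * x := by
  simp only [dg, sum_mul, mul_assoc, hs, mul_ite, mul_zero, sum_ite_eq', mem_univ, if_true, ← hz]
  rw [← mul_assoc, hsz]

omit [NormedAlgebra ℂ R] in
theorem s_mul_dg (hs : ∀ a b, star (s a) * s b = if a = b then z else 0)
    (hsz : ∀ a, z * star (s a) = star (s a)) (hz : ∀ x, z * x = x * z) (x : R) (i : I) :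
    x * star (s i) = star (s i) * dg s x := by
  simp only [dg, mul_sum, ← mul_assoc, hs, ite_mul, zero_mul, sum_ite_eq, mem_univ, if_true, hz x]
  rw [mul_assoc, hsz]

omit [NormedAlgebra ℂ R] in
theorem dg_mul (hs : ∀ a b, star (s a) * s b = if a = b then z else 0)
    (hsz : ∀ a, z * star (s a) = star (s a)) (hz : ∀ x, z * x = x * z) (x y : R) :
    dg s (x * y) = dg s x * dg s y := by
  conv_rhs => rw [dg, sum_mul]
  refine sum_congr rfl fun i _ => ?_
  rw [mul_assoc _ (star (s i)), ← s_mul_dg hs hsz hz]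
  simp only [mul_assoc]

theorem startF_rel [Nonempty I] (hs : ∀ a b, star (s a) * s b = if a = b then z else 0)
    (hsz : ∀ a, s a * z = s a) (hsz' : ∀ a, z * star (s a) = star (s a))
    (hz : ∀ x, z * x = x * z) {n : ℕ} {F : List R → R}
    (hF : ∀ a l, l.length = n + 1 → D l F a = a * F l) (x y : R) (l : List R) (hl : l.length = n) :
    D (y :: l) (startF s z F) x = x * F (y :: l) := by
  have hc : (Fintype.card I : ℂ) ≠ 0 := by exact_mod_cast Fintype.card_ne_zero
  have hm := dg_mul hs hsz' hz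
  have h1 : ∀ i j, star (s j) * F (s j * (x * y) * star (s i) :: l.map (dg s)) * s i -
      D l (fun l => star (s j) * F (s j * x * star (s i) :: l.map (dg s)) * s i) y =
      x * (star (s i) * F (dg s y :: l.map (dg s)) * s i) := by
    intro i j
    have e1 := hF (s j * x * star (s i)) (dg s y :: l.map (dg s)) (by simp [hl])
    have e2 := D_map hm (fun x => dg_mul_s hs hsz hz x i) l
      (fun l => F (s j * x * star (s i) :: l)) y
    simp only [D] at e1
    rw [mul_assoc _ (star (s i)) (dg s y), ← s_mul_dg hs hsz' hz] at e1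
    simp only [mul_assoc] at e1 e2 ⊢
    rw [D_mul_left, e2, ← mul_sub, ← sub_mul, e1]
    simp only [← mul_assoc, hs, if_true, hz x]
    rw [mul_assoc x z, hsz']
  have h2 : ∀ i, y * (prism (dg s) (star (s i)) l F * s i) -
      D l (fun l => prism (dg s) (star (s i)) l F * s i) y =
      star (s i) * F (dg s y :: l.map (dg s)) * s i - F (y :: l) * z := by
    intro i
    rw [← prism_cocycle hm (fun x => dg_mul_s hs hsz hz x i) (fun x => s_mul_dg hs hsz' hz x i) hF
      y l hl, mul_assoc (F _), hs, if_pos rfl]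
  have h3 := hF x (y :: l) (by simp [hl])
  simp only [D] at h3
  simp only [D, startF, D_add, D_sub, D_smul, D_mul_left, D_sum]
  have e : ∀ a a' b b' c c' : R, a - b + c - (a' - b' + c') = (a - a') - (b - b') + (c - c') :=
    fun _ _ _ _ _ _ => by abel
  rw [e, ← smul_sub, ← sum_sub_distrib, ← mul_sub (1 - z), h3, mul_assoc x y, ← mul_sub x,
    mul_smul_comm _ y, ← smul_sub, mul_sum]
  simp only [← sum_sub_distrib, h1, h2]
  rw [sum_const, card_univ, sum_sub_distrib, sum_const, card_univ, ← mul_sum,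
    ← Nat.cast_smul_eq_nsmul ℂ, ← Nat.cast_smul_eq_nsmul ℂ, smul_smul, smul_sub, smul_smul,
    mul_assoc, inv_mul_cancel₀ hc, mul_one, one_smul, mul_sub, mul_smul_comm, sub_mul, one_mul,
    ← mul_assoc x, ← hz]
  abel

end Alg

section Op

variable {H : Type*} [NormedAddCommGroup H] [InnerProductSpace ℂ H] [CompleteSpace H]

/-- Bounded at level `N` on the range of `z`. -/
def LevZ {M : VonNeumannAlgebra H} (z : H →L[ℂ] H) (φ : M → H →L[ℂ] H)
    (N : ℕ) (c : ℝ) : Prop :=
  ∀ (X : Fin N → Fin N → M) (C : ℝ), 0 ≤ C →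
    (∀ ξ : Fin N → H, ∑ a, ‖∑ b, (X a b : H →L[ℂ] H) (ξ b)‖ ^ 2 ≤ C ^ 2 * ∑ b, ‖ξ b‖ ^ 2) →
    ∀ η ξ : Fin N → H, (∀ a, z (η a) = η a) →
      ‖∑ a, ∑ b, ⟪η a, φ (X a b) (ξ b)⟫_ℂ‖ ≤ c * C * √(∑ a, ‖η a‖ ^ 2) * √(∑ b, ‖ξ b‖ ^ 2)

theorem exists_isometries {M : VonNeumannAlgebra H} {z : H →L[ℂ] H} (hz : PropInf M z) :
    ∃ s : ℕ → H →L[ℂ] H, (∀ a, s a ∈ M) ∧ (∀ a, z * s a = s a) ∧
      ∀ a b, star (s a) * s b = if a = b then z else 0 := by
  obtain ⟨hzp, s, hs, t, ht, hss, htt, hst, hzs, hzt⟩ := hz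
  have hts : star t * s = 0 := by simpa using congrArg star hst
  have hzu : ∀ n : ℕ, z * (t ^ n * s) = t ^ n * s := by
    intro n
    cases n with
    | zero => simpa using hzs
    | succ n => rw [pow_succ', mul_assoc, ← mul_assoc z, hzt]
  refine ⟨fun n => t ^ n * s, fun a => mul_mem (pow_mem ht _) hs, hzu, fun n => ?_⟩
  induction n with
  | zero =>
    intro m
    cases m with
    | zero => simpa using hss
    | succ m => simp [pow_succ', ← mul_assoc, hst]
  | succ n ih =>
    intro m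
    cases m with
    | zero => simp [pow_succ', mul_assoc, hts]
    | succ m =>
      have : star (t ^ (n + 1) * s) * (t ^ (m + 1) * s) =
          star (t ^ n * s) * ((star t * t) * (t ^ m * s)) := by
        simp only [pow_succ', star_mul, mul_assoc]
      rw [this, htt, hzu, ih]
      simp

omit [CompleteSpace H] in
theorem mat_bound {ι κ : Type*} [Fintype ι] [Fintype κ] (X : ι → κ → H →L[ℂ] H) {C : ℝ}
    (hC : 0 ≤ C) (hX : ∀ ξ : κ → H, ∑ a, ‖∑ b, X a b (ξ b)‖ ^ 2 ≤ C ^ 2 * ∑ b, ‖ξ b‖ ^ 2)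
    (h : H →L[ℂ] H) (η : ι → H) (ξ : κ → H) :
    ‖∑ a, ∑ b, ⟪η a, X a b (h (ξ b))⟫_ℂ‖ ≤
      ‖h‖ * C * √(∑ a, ‖η a‖ ^ 2) * √(∑ b, ‖ξ b‖ ^ 2) := by
  simp only [← inner_sum]
  refine (norm_sum_le _ _).trans ((sum_le_sum fun a _ => norm_inner_le_norm _ _).trans ?_)
  refine (Real.sum_mul_le_sqrt_mul_sqrt _ _ _).trans ?_
  have h1 : √(∑ a, ‖∑ b, X a b (h (ξ b))‖ ^ 2) ≤ ‖h‖ * C * √(∑ b, ‖ξ b‖ ^ 2) := by
    refine Real.sqrt_le_iff.2 ⟨by positivity, (hX _).trans ?_⟩
    rw [mul_pow, mul_pow, Real.sq_sqrt (by positivity), mul_comm (‖h‖ ^ 2), mul_assoc]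
    refine mul_le_mul_of_nonneg_left ?_ (sq_nonneg _)
    rw [mul_sum]
    refine sum_le_sum fun b _ => ?_
    rw [← mul_pow]
    exact pow_le_pow_left₀ (norm_nonneg _) (h.le_opNorm _) 2
  refine (mul_le_mul_of_nonneg_left h1 (Real.sqrt_nonneg _)).trans (le_of_eq ?_)
  ring

theorem norm_avg_le {V I : Type*} [NormedAddCommGroup V] [NormedSpace ℂ V] [Fintype I] [Nonempty I]
    (f : I → V) {c : ℝ} (h : ∀ i, ‖f i‖ ≤ c) : ‖(Fintype.card I : ℂ)⁻¹ • ∑ i, f i‖ ≤ c := by
  have hc : (0 : ℝ) < Fintype.card I := by exact_mod_cast Fintype.card_pos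
  rw [norm_smul, norm_inv, Complex.norm_natCast, inv_mul_le_iff₀ hc]
  refine (norm_sum_le _ _).trans ((sum_le_sum fun i _ => h i).trans (le_of_eq ?_))
  simp

theorem start_level (M : VonNeumannAlgebra H) {z : H →L[ℂ] H} (hz : CProj M z) (hp : PropInf M z)
    {n : ℕ} {F : List M → M} {K : ℝ} (hK : 0 ≤ K) (h1 : ML F)
    (h2 : Bd F K) (h3 : ∀ a l, l.length = n + 1 → D l F a = a * F l) (N : ℕ) :
    ∃ Φ : List M → M, ML Φ ∧
      (∀ x l, l.length = n → ‖Φ (x :: l)‖ ≤ (n + 3) * K * np l * ‖x‖) ∧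
      (∀ x y l, l.length = n → D (y :: l) Φ x = x * F (y :: l)) ∧
      ∀ l, l.length = n → ∀ r ≤ N,
        LevZ z (fun x => (Φ (x :: l) : H →L[ℂ] H)) r ((n + 3) * K * np l) := by
  obtain ⟨s₀, hs₀, hzs₀, hs₀'⟩ := exists_isometries hp
  let s : Fin (N + 1) → M := fun a => ⟨s₀ a, hs₀ a⟩
  let Z : M := ⟨z, hz.mem⟩
  have hs' : ∀ a b, star (s a : H →L[ℂ] H) * s b = if a = b then z else 0 := fun a b => by
    simp only [s, hs₀', Fin.val_inj]
  have hs : ∀ a b, star (s a) * s b = if a = b then Z else 0 := fun a b => Subtype.ext (by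
    rw [MulMemClass.coe_mul, StarMemClass.coe_star, hs']
    split_ifs <;> rfl)
  have hZ : ∀ x, Z * x = x * Z := fun x => Subtype.ext (hz.comm x.2)
  have hzs : ∀ a, Z * s a = s a := fun a => Subtype.ext (hzs₀ a)
  have hsz : ∀ a, s a * Z = s a := fun a => by rw [← hZ, hzs]
  have hZs : star Z = Z := Subtype.ext hz.proj.isSelfAdjoint.star_eq
  have hsz' : ∀ a, Z * star (s a) = star (s a) := fun a => by
    have := congrArg star (hsz a)
    rwa [star_mul, hZs] at this
  have hsn : ∀ a, ‖s a‖ ≤ 1 := fun a => by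
    have : PIso (s a : H →L[ℂ] H) := PIso.of_idem (by
      rw [hs', if_pos rfl]
      exact hz.proj.isIdempotentElem)
    exact this.norm_le
  have hsn' : ∀ a, ‖star (s a)‖ ≤ 1 := fun a => (norm_star (s a : H →L[ℂ] H)).trans_le (hsn a)
  have hdg : ∀ x, ‖dg s x‖ ≤ ‖x‖ := fun x => by
    have := sandwich_norm hz.proj hs' hs'
      (fun a b => if a = b then (x : H →L[ℂ] H) else 0) (norm_nonneg x) (fun ξ => by
        rw [mul_sum]
        refine sum_le_sum fun a _ => ?_
        simp only [DFunLike.ite_apply, zero_apply, sum_ite_eq, mem_univ,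
          if_true, ← mul_pow]
        exact pow_le_pow_left₀ (norm_nonneg _) ((x : H →L[ℂ] H).le_opNorm _) 2)
      (fun _ => true) (fun _ => true)
    refine le_trans (le_of_eq ?_) this
    rw [AddSubgroupClass.coe_norm]
    simp [dg, sgn]
  have hpr : ∀ l : List M, l.length = n →
      ‖(Fintype.card (Fin (N + 1)) : ℂ)⁻¹ • ∑ i, prism (dg s) (star (s i)) l F * s i‖ ≤
        (n + 1) * K * np l := fun l hl => norm_avg_le _ fun i => by
    have := norm_prism_le hdg (hsn' i) l hK h2
    rw [hl] at this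
    exact (norm_mul_le _ _).trans ((mul_le_of_le_one_right (norm_nonneg _) (hsn i)).trans this)
  have hG : ∀ (l : List M) x, ‖F (x :: l.map (dg s))‖ ≤ K * np l * ‖x‖ :=
    fun l x => by
    refine (h2 _).trans ?_
    rw [np_cons, mul_comm ‖x‖, ← mul_assoc]
    gcongr
    exact np_map_le hdg l
  refine ⟨startF s Z F, startF_ml s Z h1, fun x l hl => ?_,
    fun x y l hl => startF_rel hs hsz hsz' hZ h3 x y l hl, fun l hl r hr X C hC hX η ξ hη => ?_⟩
  · have a1 : ‖((Fintype.card (Fin (N + 1)) : ℂ)⁻¹ * (Fintype.card (Fin (N + 1)) : ℂ)⁻¹) •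
        ∑ j, ∑ i, star (s j) * F (s j * x * star (s i) :: l.map (dg s)) * s i‖ ≤
        K * np l * ‖x‖ := by
      rw [mul_smul, smul_sum]
      refine norm_avg_le _ fun j => norm_avg_le _ fun i => ?_
      have b1 : ‖s j * x * star (s i)‖ ≤ ‖x‖ :=
        (norm_mul_le _ _).trans ((mul_le_of_le_one_right (norm_nonneg _) (hsn' i)).trans
          ((norm_mul_le _ _).trans (mul_le_of_le_one_left (norm_nonneg _) (hsn j))))
      refine (norm_mul_le _ _).trans ((mul_le_of_le_one_right (norm_nonneg _) (hsn i)).trans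
        ((norm_mul_le _ _).trans ((mul_le_of_le_one_left (norm_nonneg _) (hsn' j)).trans
          ((hG l _).trans ?_))))
      exact mul_le_mul_of_nonneg_left b1 (mul_nonneg hK (np_nonneg l))
    have a2 := (norm_mul_le x _).trans (mul_le_mul_of_nonneg_left (hpr l hl) (norm_nonneg x))
    have a3 : ‖(1 - Z) * F (x :: l)‖ ≤ K * np l * ‖x‖ := by
      have b1 : ‖1 - Z‖ ≤ 1 := (PIso.of_proj hz.one_sub.proj).norm_le
      refine (norm_mul_le _ _).trans ((mul_le_of_le_one_left (norm_nonneg _) b1).trans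
        ((h2 _).trans (le_of_eq ?_)))
      rw [np_cons]
      ring
    simp only [startF]
    refine (norm_add_le _ _).trans ((add_le_add_left (norm_sub_le _ _) _).trans ?_)
    linarith
  · have hnp := np_nonneg l
    let G : M →ₗ[ℂ] M :=
      IsLinearMap.mk' _ (h1.head (l.map (dg s)))
    let α : Fin r → Fin (N + 1) := Fin.castLE (by omega)
    have hα : Function.Injective α := Fin.castLE_injective _
    have hsα : ∀ t a b, star (s (α a + t) : H →L[ℂ] H) * s (α b + t) = if a = b then z else 0 :=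
      fun t a b => by simp only [hs', add_left_inj, hα.eq_iff]
    have a1 := fun t t' => level_pair G (mul_nonneg hK hnp) (hG l) hz.proj (hsα t) (hsα t') X hC
      hX η ξ
    have a2 := mat_bound (fun a b => (X a b : H →L[ℂ] H)) hC hX
      (((Fintype.card (Fin (N + 1)) : ℂ)⁻¹ • ∑ i, prism (dg s) (star (s i)) l F * s i :
        M) : H →L[ℂ] H) η ξ
    have a3 : ∀ a (T : M) (ζ : H),
        ⟪η a, (((1 - Z) * T : M) : H →L[ℂ] H) ζ⟫_ℂ = 0 := fun a T ζ => by
      change ⟪η a, (1 - z) ((T : H →L[ℂ] H) ζ)⟫_ℂ = 0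
      rw [← hz.one_sub.proj.isSelfAdjoint.star_eq, inner_star_right]
      simp [hη]
    have a4 : ∑ a, ∑ b, ⟪η a, ((((Fintype.card (Fin (N + 1)) : ℂ)⁻¹ *
        (Fintype.card (Fin (N + 1)) : ℂ)⁻¹) • ∑ j, ∑ i,
          star (s j) * F (s j * X a b * star (s i) :: l.map (dg s)) * s i : M) :
            H →L[ℂ] H) (ξ b)⟫_ℂ =
        (Fintype.card (Fin (N + 1)) : ℂ)⁻¹ • ∑ t, (Fintype.card (Fin (N + 1)) : ℂ)⁻¹ • ∑ t',
          ∑ a, ∑ b, ⟪η a, ((star (s (α a + t)) * G (s (α a + t) * X a b * star (s (α b + t'))) *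
            s (α b + t') : M) : H →L[ℂ] H) (ξ b)⟫_ℂ := by
      rw [← smul_sum, smul_smul]
      have e : ∀ a b, ∑ j, ∑ i, star (s j) * F (s j * X a b * star (s i) :: l.map (dg s)) * s i =
          ∑ t, ∑ t', star (s (α a + t)) * G (s (α a + t) * X a b * star (s (α b + t'))) *
            s (α b + t') := fun a b => by
        rw [← Equiv.sum_comp (Equiv.addLeft (α a))]
        refine sum_congr rfl fun t _ => ?_
        rw [← Equiv.sum_comp (Equiv.addLeft (α b))]
        rfl
      simp only [e, SetLike.val_smul, AddSubmonoidClass.coe_finsetSum, smul_apply,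
        _root_.sum_apply, inner_smul_right, inner_sum, ← mul_sum, smul_eq_mul]
      congr 1
      refine (sum_congr rfl fun a _ => sum_comm.trans
        (sum_congr rfl fun t _ => sum_comm)).trans ?_
      rw [sum_comm]
      exact sum_congr rfl fun t _ => sum_comm
    simp only [startF, AddMemClass.coe_add, AddSubgroupClass.coe_sub, add_apply, sub_apply,
      inner_add_right, inner_sub_right, a3, add_zero, sum_sub_distrib, a4]
    refine (norm_sub_le _ _).trans ?_
    have b1 := norm_avg_le _ fun t => norm_avg_le _ fun t' => a1 t t'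
    have b2 := a2.trans (mul_le_mul_of_nonneg_right (mul_le_mul_of_nonneg_right
      (mul_le_mul_of_nonneg_right (hpr l hl) hC) (Real.sqrt_nonneg _)) (Real.sqrt_nonneg _))
    refine (add_le_add b1 b2).trans ?_
    have : 0 ≤ K * np l * C * √(∑ a, ‖η a‖ ^ 2) * √(∑ b, ‖ξ b‖ ^ 2) := by positivity
    nlinarith

end Op

end Vale.Agent.P082
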