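import Vale.Agent.KR.Rho
import Vale.Agent.KR.Small
import Vale.Agent.P082.Start

/-!
The cohomological reduction: from the averaging theorem `Vale.Agent.KR.rho` to the vanishing of
the bounded Hochschild cohomology.
-/

namespace Vale.Agent.P082

open Vale.Agent.P104 Finset
open Vale.Agent.KR (Mp Ball CBn act tau UG diag Inv tau_apply)
open scoped InnerProductSpace

variable {H : Type*} [NormedAddCommGroup H] [InnerProductSpace ℂ H] [CompleteSpace H]
  {M : VonNeumannAlgebra H}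

section WC

variable {X : Type*} [TopologicalSpace X]

/-- Weakly continuous functions. -/
def WC (G : X → M) : Prop := ∀ ξ η : H, Continuous fun t => ⟪η, (G t : H →L[ℂ] H) ξ⟫_ℂ

theorem WC.const (a : M) : WC fun _ : X => a := fun _ _ => continuous_const

theorem WC.add {G G' : X → M} (h : WC G) (h' : WC G') : WC fun t => G t + G' t := fun ξ η => by
  simp only [AddMemClass.coe_add, add_apply, inner_add_right]
  exact (h ξ η).add (h' ξ η)

theorem WC.sub {G G' : X → M} (h : WC G) (h' : WC G') : WC fun t => G t - G' t := fun ξ η => by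
  simp only [AddSubgroupClass.coe_sub, sub_apply, inner_sub_right]
  exact (h ξ η).sub (h' ξ η)

theorem WC.smul {G : X → M} (h : WC G) (c : ℂ) : WC fun t => c • G t := fun ξ η => by
  simp only [SetLike.val_smul, smul_apply, inner_smul_right]
  exact continuous_const.mul (h ξ η)

theorem WC.mul_right {G : X → M} (h : WC G) (a : M) : WC fun t => G t * a := fun ξ η =>
  h ((a : H →L[ℂ] H) ξ) η

theorem WC.isClosed_eq {G G' : X → M} (h : WC G) (h' : WC G') : IsClosed {t | G t = G' t} := by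
  have : {t | G t = G' t} = ⋂ ξ, ⋂ η, {t | ⟪η, (G t : H →L[ℂ] H) ξ⟫_ℂ =
      ⟪η, (G' t : H →L[ℂ] H) ξ⟫_ℂ} := by
    ext t
    simp only [Set.mem_ofPred_eq, Set.mem_iInter]
    exact ⟨fun e ξ η => by rw [e], fun e => Subtype.ext (ContinuousLinearMap.ext fun ξ =>
      ext_inner_left ℂ fun η => e ξ η)⟩
  rw [this]
  exact isClosed_iInter fun ξ => isClosed_iInter fun η => _root_.isClosed_eq (h ξ η) (h' ξ η)

theorem WC.D (l : List M) {G : X → List M → M} (h : ∀ L, WC fun t => G t L) (x : M) :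
    WC fun t => D l (G t) x := by
  induction l generalizing G x with
  | nil => exact (h []).mul_right x
  | cons y l ih => exact (h _).sub (ih (G := fun t l => G t (x :: l)) (fun L => h _) y)

theorem isClosed_ml {G : X → List M → M} (h : ∀ L, WC fun t => G t L) :
    IsClosed {t | ML (G t)} := by
  have : {t | ML (G t)} = ⋂ l₁, ⋂ l₂,
      (⋂ a, ⋂ b, {t | G t (l₁ ++ (a + b) :: l₂) = G t (l₁ ++ a :: l₂) + G t (l₁ ++ b :: l₂)}) ∩
      ⋂ c : ℂ, ⋂ a, {t | G t (l₁ ++ (c • a) :: l₂) = c • G t (l₁ ++ a :: l₂)} := by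
    ext t
    simp only [Set.mem_ofPred_eq, Set.mem_iInter, Set.mem_inter_iff]
    exact ⟨fun e l₁ l₂ => ⟨(e l₁ l₂).map_add, (e l₁ l₂).map_smul⟩,
      fun e l₁ l₂ => ⟨(e l₁ l₂).1, (e l₁ l₂).2⟩⟩
  rw [this]
  exact isClosed_iInter fun l₁ => isClosed_iInter fun l₂ =>
    (isClosed_iInter fun a => isClosed_iInter fun b => (h _).isClosed_eq ((h _).add (h _))).inter
      (isClosed_iInter fun c => isClosed_iInter fun a => (h _).isClosed_eq ((h _).smul c))

end WC

/-- Lists of length `n`. -/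
abbrev Tl (M : VonNeumannAlgebra H) (n : ℕ) := {l : List M // l.length = n}

/-- A family of maps as a function on lists. -/
noncomputable def toL {n : ℕ} (Ψ : Tl M n → Mp M) : List M → M
  | [] => 0
  | x :: l => if h : l.length = n then Ψ ⟨l, h⟩ x else 0

variable {n : ℕ}

theorem wc_toL (L : List M) : WC fun Ψ : Tl M n → Mp M => toL Ψ L := by
  cases L with
  | nil => exact WC.const 0
  | cons x l =>
    by_cases h : l.length = n
    · simp only [toL, dif_pos h]
      exact fun ξ η => (KR.Mp.continuous_inner x ξ η).comp (continuous_apply _)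
    · simp only [toL, dif_neg h]
      exact WC.const 0

theorem toL_comb (a b : ℝ) (Ψ Ψ' : Tl M n → Mp M) :
    toL (a • Ψ + b • Ψ') = fun L => (a : ℂ) • toL Ψ L + (b : ℂ) • toL Ψ' L := by
  funext L
  cases L with
  | nil => simp [toL]
  | cons x l =>
    by_cases h : l.length = n
    · simp only [toL, dif_pos h]
      rfl
    · simp [toL, dif_neg h]

theorem toL_tau (u : UG (∅ : Set M)) (Ψ : Tl M n → Mp M) (x : M) (l : List M) :
    toL (diag _ (act ∅) u Ψ) (x :: l) = star u.1 * toL Ψ (u.1 * x :: l) := by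
  by_cases h : l.length = n
  · simp only [toL, dif_pos h]
    rfl
  · simp [toL, dif_neg h]

/-- The set of the primitives which are bounded at level `N`. -/
def Prim (z : H →L[ℂ] H) (F : List M → M) (c : ℝ) (n N : ℕ) : Set (Tl M n → Mp M) :=
  {Ψ | (∀ t, CBn N z (c * np t.1) (Ψ t)) ∧ ML (toL Ψ) ∧
    ∀ x y l, l.length = n → D (y :: l) (toL Ψ) x = x * F (y :: l)}

theorem isClosed_prim (z : H →L[ℂ] H) (F : List M → M) (c : ℝ) (N : ℕ) :
    IsClosed (Prim z F c n N) := by
  have : Prim z F c n N = (⋂ t : Tl M n, (fun Ψ => Ψ t) ⁻¹' {ψ | CBn N z (c * np t.1) ψ}) ∩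
      ({Ψ | ML (toL Ψ)} ∩ ⋂ x, ⋂ y, ⋂ l : List M, ⋂ _ : l.length = n,
        {Ψ | D (y :: l) (toL Ψ) x = x * F (y :: l)}) := by
    ext Ψ
    simp only [Prim, Set.mem_ofPred_eq, Set.mem_iInter, Set.mem_inter_iff, Set.mem_preimage]
  rw [this]
  refine IsClosed.inter (isClosed_iInter fun t => ?_) (IsClosed.inter (isClosed_ml wc_toL)
    (isClosed_iInter fun x => isClosed_iInter fun y =>
      isClosed_iInter fun l => isClosed_iInter fun _ => ?_))
  · exact (KR.isClosed_cbn _ _ _).preimage (continuous_apply t)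
  · exact (WC.D _ wc_toL x).isClosed_eq (WC.const _)

theorem convex_prim (z : H →L[ℂ] H) (F : List M → M) (c : ℝ) (N : ℕ) :
    Convex ℝ (Prim z F c n N) := by
  rintro Ψ ⟨h1, h2, h3⟩ Ψ' ⟨h1', h2', h3'⟩ a b ha hb hab
  refine ⟨fun t => KR.convex_cbn _ _ _ (h1 t) (h1' t) ha hb hab, ?_, fun x y l hl => ?_⟩
  · rw [toL_comb]
    intro l₁ l₂
    exact ⟨fun p q => by
        simp only [(h2 l₁ l₂).map_add, (h2' l₁ l₂).map_add, smul_add]; abel,
      fun r p => by
        simp only [(h2 l₁ l₂).map_smul, (h2' l₁ l₂).map_smul, smul_add, smul_comm r]⟩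
  · rw [toL_comb, D_add, D_smul, D_smul, h3 x y l hl, h3' x y l hl, ← add_smul, ← Complex.ofReal_add,
      hab, Complex.ofReal_one, one_smul]

theorem prim_tau {z : H →L[ℂ] H} (hz : CProj M z) {F : List M → M} {c : ℝ} {N : ℕ}
    (u : UG (∅ : Set M)) {Ψ : Tl M n → Mp M} (h : Ψ ∈ Prim z F c n N) :
    diag _ (act ∅) u Ψ ∈ Prim z F c n N := by
  obtain ⟨h1, h2, h3⟩ := h
  refine ⟨fun t => (h1 t).tau hz u.2.1, fun l₁ l₂ => ?_, fun x y l hl => ?_⟩
  · cases l₁ with
    | nil =>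
      simp only [List.nil_append, toL_tau]
      exact ⟨fun p q => by rw [mul_add, (h2.head _).map_add, mul_add],
        fun r p => by rw [mul_smul_comm, (h2.head _).map_smul, mul_smul_comm]⟩
    | cons x l₁ =>
      have := h2.cons (u.1 * x) l₁ l₂
      simp only [List.cons_append, toL_tau] at this ⊢
      exact ⟨fun p q => by rw [this.map_add, mul_add],
        fun r p => by rw [this.map_smul, mul_smul_comm]⟩
  · have := h3 (u.1 * x) y l hl
    simp only [D, toL_tau, D_mul_left] at this ⊢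
    rw [← mul_sub, ← mul_assoc u.1, this, ← mul_assoc, ← mul_assoc, u.2.1.1, one_mul]

theorem prim_nonempty {z : H →L[ℂ] H} (hz : CProj M z) (hp : PropInf M z) {F : List M → M} {K : ℝ}
    (hK : 0 ≤ K) (h1 : ML F) (h2 : Bd F K) (h3 : ∀ a l, l.length = n + 1 → D l F a = a * F l)
    (N : ℕ) : ∃ Ψ : Tl M n → Mp M, (∀ t, Ψ t ∈ Ball M ((n + 3) * K * np t.1)) ∧
      ∀ r ≤ N, Ψ ∈ Prim z F ((n + 3) * K) n r := by
  obtain ⟨Φ, a1, a2, a3, a4⟩ := start_level M hz hp hK h1 h2 h3 N
  let Ψ : Tl M n → Mp M := fun t => IsLinearMap.mk' _ (a1.head t.1)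
  have e : ∀ L, toL Ψ L = if L.length = n + 1 then Φ L else 0 := fun L => by
    cases L with
    | nil => simp [toL]
    | cons x l =>
      by_cases h : l.length = n
      · simp only [toL, List.length_cons, h, if_true]
        rfl
      · simp [toL, h]
  refine ⟨Ψ, fun t x => a2 x t.1 t.2, fun r hr => ⟨fun t => a4 t.1 t.2 r hr, fun l₁ l₂ => ?_,
    fun x y l hl => ?_⟩⟩
  · simp only [e, List.length_append, List.length_cons]
    split_ifs
    · exact a1 l₁ l₂
    · exact ⟨fun _ _ => by simp, fun _ _ => by simp⟩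
  · rw [← a3 x y l hl]
    exact D_congr _ (fun l' hl' => by rw [e, if_pos (by simp [hl', hl])]) x

theorem lists_main (M : VonNeumannAlgebra H) (n : ℕ) (F : List M → M) (K : ℝ) (hK : 0 ≤ K)
    (h1 : ML F) (h2 : Bd F K) (h3 : ∀ a l, l.length = n + 1 → D l F a = a * F l) :
    ∃ (G : List M → M) (K' : ℝ), ML G ∧ (∀ l, l.length = n → ‖G l‖ ≤ K' * np l) ∧
      ∀ x l, l.length = n → F (x :: l) = x * G l - D l G x := by
  obtain ⟨z, hz, hp, hf⟩ := KR.exists_split M
  set c : ℝ := (n + 3) * K with hc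
  have hc0 : 0 ≤ c := by positivity
  let B : Set (Tl M n → Mp M) := Set.pi Set.univ fun t => Ball M (c * np t.1)
  have hB : IsCompact B := isCompact_univ_pi fun t => KR.isCompact_ball _
  obtain ⟨Ψ₀, hΨ₀⟩ := KR.fip hB (fun N => Prim z F c n N) (isClosed_prim z F c) fun s => by
    obtain ⟨Ψ, b1, b2⟩ := prim_nonempty hz hp hK h1 h2 h3 (s.sup id)
    exact ⟨Ψ, fun t _ => b1 t, fun r hr => b2 r (le_sup (f := id) hr)⟩
  have hI : Inv (diag (Tl M n) (act (∅ : Set M))) (B ∩ ⋂ N, Prim z F c n N) :=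
    ⟨⟨Ψ₀, hΨ₀.1, Set.mem_iInter.2 hΨ₀.2⟩,
      hB.inter_right (isClosed_iInter (isClosed_prim z F c)),
      (convex_pi fun t _ => KR.convex_ball _).inter (convex_iInter (convex_prim z F c)),
      fun u Ψ hΨ => ⟨fun t ht => KR.tau_ball (mul_nonneg hc0 (np_nonneg _))
          (KR.unitary_norm_le u.2.1) (hΨ.1 t ht),
        Set.mem_iInter.2 fun N => prim_tau hz u (Set.mem_iInter.1 hΨ.2 N)⟩⟩
  obtain ⟨Ψ, ⟨b1, b2⟩, b3⟩ := KR.family hI fun t K' hK' hI' => by
    obtain ⟨ψ, hψ, h⟩ := KR.rho hz hf (mul_nonneg hc0 (np_nonneg t.1)) hI'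
      (fun ψ hψ => by
        obtain ⟨Ψ, hΨ, rfl⟩ := hK' hψ
        exact hΨ.1 t (Set.mem_univ t))
      (fun ψ hψ N => by
        obtain ⟨Ψ, hΨ, rfl⟩ := hK' hψ
        exact (Set.mem_iInter.1 hΨ.2 N).1 t)
    exact ⟨ψ, hψ, KR.fixed_iff.2 h⟩
  obtain ⟨-, b4, b5⟩ := Set.mem_iInter.1 b2 0
  have b6 : ∀ x l, toL Ψ (x :: l) = x * toL Ψ (1 :: l) := fun x l => by
    by_cases h : l.length = n
    · simp only [toL, dif_pos h]
      rw [← KR.fixed_iff.1 (fun u => b3 u _), mul_one]
    · simp [toL, dif_neg h]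
  refine ⟨fun l => toL Ψ (1 :: l), c, b4.cons 1, fun l hl => ?_, fun x l hl => ?_⟩
  · simp only [toL, dif_pos hl]
    refine (b1 ⟨l, hl⟩ (Set.mem_univ _) 1).trans
      (mul_le_of_le_one_right (mul_nonneg hc0 (np_nonneg l)) ?_)
    exact KR.unitary_norm_le (one_mem _)
  · have := b5 1 x l hl
    simp only [D, one_mul] at this
    rw [← this, b6]

theorem vanish (M : VonNeumannAlgebra H) (k : ℕ)
    (f : ContinuousMultilinearMap ℂ (fun _ : Fin (k + 1) => M.toStarSubalgebra) M.toStarSubalgebra)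
    (hf : ∀ a, hochD f a = 0) :
    ∃ g : ContinuousMultilinearMap ℂ (fun _ : Fin k => M.toStarSubalgebra) M.toStarSubalgebra,
      ∀ a, hochD g a = f a :=
  vanish_of_list (R := M) (lists_main M k) f hf

end Vale.Agent.P082
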