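import Mathlib

/-!
# The Hochschild differential of a bounded multilinear cochain
-/

namespace Vale.Agent.P082

/-- The Hochschild differential of a bounded `k`-linear map `f : A^k → A`, evaluated at
`(a 0, ..., a k)`:
`a 0 * f (a 1, ..., a k) + ∑ j, (-1)^(j+1) f (a 0, ..., a j * a (j+1), ..., a k)
  + (-1)^(k+1) f (a 0, ..., a (k-1)) * a k`. -/
noncomputable def hochD {A : Type*} [NormedRing A] [NormedAlgebra ℂ A] {k : ℕ}
    (f : ContinuousMultilinearMap ℂ (fun _ : Fin k => A) A) (a : Fin (k + 1) → A) : A :=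
  a 0 * f (Fin.tail a) +
    ∑ j : Fin k, (-1 : ℂ) ^ ((j : ℕ) + 1) • f (Fin.contractNth j.castSucc (· * ·) a) +
    (-1 : ℂ) ^ (k + 1) • (f (Fin.init a) * a (Fin.last k))

end Vale.Agent.P082
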