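import Vale.Agent.P104.Gamma
import Vale.Agent.P104.Sums

/-!
Matrix estimates for maps which are averaged over isometries with orthogonal ranges.
-/

namespace Vale.Agent.P082

open Vale.Agent.P104 Finset
open scoped InnerProductSpace

variable {H : Type*} [NormedAddCommGroup H] [InnerProductSpace ℂ H] [CompleteSpace H]
  {ι κ : Type*} [Fintype ι] [DecidableEq ι] [Fintype κ] [DecidableEq κ]

theorem proj_norm_le {z : H →L[ℂ] H} (hz : IsStarProjection z) (η : H) : ‖z η‖ ≤ ‖η‖ :=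
  (PIso.of_proj hz).norm_apply_le η

theorem orth_sum_sq {s : ι → H →L[ℂ] H} {z : H →L[ℂ] H} (hz : IsStarProjection z)
    (hs : ∀ a b, star (s a) * s b = if a = b then z else 0) (η : ι → H) :
    ‖∑ a, s a (η a)‖ ^ 2 ≤ ∑ a, ‖η a‖ ^ 2 := by
  have h1 : ∀ a b, ⟪s a (η a), s b (η b)⟫_ℂ = if a = b then ⟪η a, z (η a)⟫_ℂ else 0 := by
    intro a b
    rw [← inner_star_right, ← mul_apply_eq_comp, hs]
    split_ifs with h
    · rw [h]
    · simp
  rw [← @inner_self_eq_norm_sq ℂ, sum_inner]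
  simp only [inner_sum, h1, sum_ite_eq, mem_univ, if_true, map_sum]
  refine sum_le_sum fun a _ => (RCLike.re_le_norm _).trans ((norm_inner_le_norm _ _).trans ?_)
  rw [sq]
  exact mul_le_mul_of_nonneg_left (proj_norm_le hz _) (norm_nonneg _)

theorem orth_adj_sq {s : ι → H →L[ℂ] H} {z : H →L[ℂ] H} (hz : IsStarProjection z)
    (hs : ∀ a b, star (s a) * s b = if a = b then z else 0) (ζ : H) :
    ∑ a, ‖star (s a) ζ‖ ^ 2 ≤ ‖ζ‖ ^ 2 := by
  set S := ∑ a, ‖star (s a) ζ‖ ^ 2 with hS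
  have hS0 : 0 ≤ S := by positivity
  have h1 := orth_sum_sq hz hs fun a => star (s a) ζ
  have h2 : S = (⟪ζ, ∑ a, s a (star (s a) ζ)⟫_ℂ).re := by
    rw [inner_sum, Complex.re_sum]
    refine sum_congr rfl fun a _ => ?_
    rw [← inner_star_left, ← @inner_self_eq_norm_sq ℂ]
    rfl
  have h3 : S ≤ ‖ζ‖ * ‖∑ a, s a (star (s a) ζ)‖ :=
    h2.le.trans ((Complex.re_le_norm _).trans (norm_inner_le_norm _ _))
  have h4 := pow_le_pow_left₀ hS0 h3 2
  rw [mul_pow] at h4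
  have h5 : S ^ 2 ≤ ‖ζ‖ ^ 2 * S := h4.trans (mul_le_mul_of_nonneg_left h1 (sq_nonneg _))
  rcases hS0.eq_or_lt with h | h
  · rw [← h]
    positivity
  · nlinarith

theorem norm_sgn (b : Bool) : ‖sgn b‖ = 1 := by cases b <;> simp [sgn]

theorem sandwich_norm {s : ι → H →L[ℂ] H} {t : κ → H →L[ℂ] H} {z : H →L[ℂ] H}
    (hz : IsStarProjection z) (hs : ∀ a b, star (s a) * s b = if a = b then z else 0)
    (ht : ∀ a b, star (t a) * t b = if a = b then z else 0) (X : ι → κ → H →L[ℂ] H) {C : ℝ}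
    (hC : 0 ≤ C) (hX : ∀ ξ : κ → H, ∑ a, ‖∑ b, X a b (ξ b)‖ ^ 2 ≤ C ^ 2 * ∑ b, ‖ξ b‖ ^ 2)
    (x : ι → Bool) (y : κ → Bool) :
    ‖∑ a, ∑ b, (sgn (x a) * sgn (y b)) • (s a * X a b * star (t b))‖ ≤ C := by
  refine ContinuousLinearMap.opNorm_le_bound _ hC fun ζ => ?_
  refine abs_le_of_sq_le_sq' ?_ (by positivity) |>.2
  have e : (∑ a, ∑ b, (sgn (x a) * sgn (y b)) • (s a * X a b * star (t b))) ζ =
      ∑ a, s a (sgn (x a) • ∑ b, X a b (sgn (y b) • star (t b) ζ)) := by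
    simp only [_root_.sum_apply, smul_apply, mul_apply_eq_comp, map_smul, map_sum, smul_sum,
      smul_smul]
  rw [e, mul_pow]
  refine (orth_sum_sq hz hs _).trans ?_
  simp only [norm_smul, norm_sgn, one_mul]
  refine (hX _).trans (mul_le_mul_of_nonneg_left ?_ (sq_nonneg _))
  simp only [norm_smul, norm_sgn, one_mul]
  exact orth_adj_sq hz ht ζ

theorem sign_diag (T : ι → ι → ℂ) :
    ∑ x : ι → Bool, ∑ a, ∑ a', sgn (x a) * sgn (x a') * T a a' =
      (Fintype.card (ι → Bool) : ℂ) * ∑ a, T a a := by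
  rw [sum_comm, mul_sum]
  refine sum_congr rfl fun a _ => ?_
  rw [sum_comm]
  simp only [← sum_mul, sgn_orth, ite_mul, zero_mul, sum_ite_eq, mem_univ, if_true]

theorem level_pair {M : VonNeumannAlgebra H} (G : M →ₗ[ℂ] M)
    {K : ℝ} (hK : 0 ≤ K) (hG : ∀ x, ‖G x‖ ≤ K * ‖x‖) {s : ι → M}
    {t : κ → M} {z : H →L[ℂ] H} (hz : IsStarProjection z)
    (hs : ∀ a b, star (s a : H →L[ℂ] H) * s b = if a = b then z else 0)
    (ht : ∀ a b, star (t a : H →L[ℂ] H) * t b = if a = b then z else 0)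
    (X : ι → κ → M) {C : ℝ} (hC : 0 ≤ C)
    (hX : ∀ ξ : κ → H, ∑ a, ‖∑ b, (X a b : H →L[ℂ] H) (ξ b)‖ ^ 2 ≤ C ^ 2 * ∑ b, ‖ξ b‖ ^ 2)
    (η : ι → H) (ξ : κ → H) :
    ‖∑ a, ∑ b, ⟪η a, ((star (s a) * G (s a * X a b * star (t b)) * t b : M) :
      H →L[ℂ] H) (ξ b)⟫_ℂ‖ ≤ K * C * √(∑ a, ‖η a‖ ^ 2) * √(∑ b, ‖ξ b‖ ^ 2) := by
  set T : ι → ι → κ → κ → ℂ := fun a a' b b' =>
    ⟪(s a : H →L[ℂ] H) (η a), (G (s a' * X a' b' * star (t b')) : H →L[ℂ] H)
      ((t b : H →L[ℂ] H) (ξ b))⟫_ℂ with hT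
  have e0 : ∀ a b, ⟪η a, ((star (s a) * G (s a * X a b * star (t b)) * t b :
      M) : H →L[ℂ] H) (ξ b)⟫_ℂ = T a a b b := fun a b =>
    inner_star_right (s a : H →L[ℂ] H) _ _
  have e1 : ∀ (x : ι → Bool) (y : κ → Bool),
      ⟪∑ a, (s a : H →L[ℂ] H) (sgn (x a) • η a),
        (G (∑ a, ∑ b, (sgn (x a) * sgn (y b)) • (s a * X a b * star (t b))) : H →L[ℂ] H)
          (∑ b, (t b : H →L[ℂ] H) (sgn (y b) • ξ b))⟫_ℂ =
      ∑ a, ∑ a', sgn (x a) * sgn (x a') * ∑ b, ∑ b', sgn (y b) * sgn (y b') * T a a' b b' := by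
    intro x y
    have hs' : ∀ b, (starRingEnd ℂ) (sgn b) = sgn b := Gamma_star_sgn
    simp only [map_sum, map_smul, AddSubmonoidClass.coe_finsetSum, SetLike.val_smul,
      _root_.sum_apply, smul_apply, sum_inner, inner_sum, inner_smul_left, inner_smul_right, hs',
      mul_sum, hT]
    refine (sum_congr rfl fun b _ => (sum_congr rfl fun a' _ => sum_comm).trans sum_comm).trans ?_
    rw [sum_comm]
    refine sum_congr rfl fun a _ => ?_
    rw [sum_comm]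
    refine sum_congr rfl fun a' _ => sum_congr rfl fun b _ => sum_congr rfl fun b' _ => ?_
    ring
  have e2 : ∑ x : ι → Bool, ∑ y : κ → Bool,
      ∑ a, ∑ a', sgn (x a) * sgn (x a') * ∑ b, ∑ b', sgn (y b) * sgn (y b') * T a a' b b' =
      (Fintype.card (ι → Bool) : ℂ) * (Fintype.card (κ → Bool) : ℂ) * ∑ a, ∑ b, T a a b b := by
    rw [sum_comm]
    simp only [sign_diag]
    rw [← mul_sum, sum_comm, mul_assoc]
    simp only [sign_diag]
    rw [← mul_sum]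
  have b1 : ∀ (x : ι → Bool) (y : κ → Bool),
      ‖∑ a, ∑ a', sgn (x a) * sgn (x a') * ∑ b, ∑ b', sgn (y b) * sgn (y b') * T a a' b b'‖ ≤
        K * C * √(∑ a, ‖η a‖ ^ 2) * √(∑ b, ‖ξ b‖ ^ 2) := by
    intro x y
    rw [← e1]
    have h1 : ‖∑ a, (s a : H →L[ℂ] H) (sgn (x a) • η a)‖ ≤ √(∑ a, ‖η a‖ ^ 2) := by
      refine Real.le_sqrt_of_sq_le ((orth_sum_sq hz hs _).trans (le_of_eq ?_))
      simp only [norm_smul, norm_sgn, one_mul]
    have h2 : ‖∑ b, (t b : H →L[ℂ] H) (sgn (y b) • ξ b)‖ ≤ √(∑ b, ‖ξ b‖ ^ 2) := by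
      refine Real.le_sqrt_of_sq_le ((orth_sum_sq hz ht _).trans (le_of_eq ?_))
      simp only [norm_smul, norm_sgn, one_mul]
    have h3 : ‖∑ a, ∑ b, (sgn (x a) * sgn (y b)) • (s a * X a b * star (t b))‖ ≤ C := by
      have := sandwich_norm hz hs ht (fun a b => (X a b : H →L[ℂ] H)) hC hX x y
      refine le_trans (le_of_eq ?_) this
      rw [AddSubgroupClass.coe_norm]
      simp only [AddSubmonoidClass.coe_finsetSum, SetLike.val_smul, MulMemClass.coe_mul,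
        StarMemClass.coe_star]
    have h4 := (hG _).trans (mul_le_mul_of_nonneg_left h3 hK)
    refine (norm_inner_le_norm _ _).trans ?_
    have h5 := (ContinuousLinearMap.le_opNorm _ _).trans
      (mul_le_mul h4 h2 (norm_nonneg _) (mul_nonneg hK hC))
    refine (mul_le_mul h1 h5 (norm_nonneg _) (Real.sqrt_nonneg _)).trans (le_of_eq ?_)
    ring
  simp only [e0]
  have hc1 : (0 : ℝ) < Fintype.card (ι → Bool) := by exact_mod_cast Fintype.card_pos
  have hc2 : (0 : ℝ) < Fintype.card (κ → Bool) := by exact_mod_cast Fintype.card_pos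
  have h6 := (norm_sum_le _ _).trans (sum_le_sum fun x (_ : x ∈ univ) =>
    (norm_sum_le _ _).trans (sum_le_sum fun y (_ : y ∈ univ) => b1 x y))
  rw [e2, norm_mul, norm_mul, Complex.norm_natCast, Complex.norm_natCast] at h6
  simp only [sum_const, card_univ, nsmul_eq_mul] at h6
  rw [← mul_assoc] at h6
  exact le_of_mul_le_mul_left h6 (by positivity)

end Vale.Agent.P082
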