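import Vale.Agent.P082.Hoch

/-!
Cochains as functions on lists: the inner differential and the prism operator.
-/

namespace Vale.Agent.P082

section Ring

variable {R : Type*} [Ring R]

/-- The inner differential: `d F (x :: l) = x * F l - D l F x`. -/
def D : List R → (List R → R) → R → R
  | [], F, x => F [] * x
  | y :: l, F, x => F (x * y :: l) - D l (fun l => F (x :: l)) y

theorem D_congr (l : List R) {F G : List R → R} (h : ∀ l', l'.length = l.length → F l' = G l')
    (x : R) : D l F x = D l G x := by
  induction l generalizing F G x with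
  | nil => simp only [D]; rw [h [] rfl]
  | cons y l ih =>
    simp only [D]
    rw [h _ (by simp), ih (G := fun l => G (x :: l)) fun l' hl' => h _ (by simp [hl'])]

theorem D_add (l : List R) (F G : List R → R) (x : R) :
    D l (fun l => F l + G l) x = D l F x + D l G x := by
  induction l generalizing F G x with
  | nil => simp only [D, add_mul]
  | cons y l ih => simp only [D]; rw [ih]; abel

theorem D_sub (l : List R) (F G : List R → R) (x : R) :
    D l (fun l => F l - G l) x = D l F x - D l G x := by
  induction l generalizing F G x with
  | nil => simp only [D, sub_mul]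
  | cons y l ih => simp only [D]; rw [ih]; abel

theorem D_zero (l : List R) (x : R) : D l (fun _ => 0) x = 0 := by
  induction l generalizing x with
  | nil => simp only [D, zero_mul]
  | cons y l ih => simp only [D]; rw [ih]; abel

theorem D_sum {I : Type*} (s : Finset I) (l : List R) (F : I → List R → R) (x : R) :
    D l (fun l => ∑ i ∈ s, F i l) x = ∑ i ∈ s, D l (F i) x := by
  classical
  induction s using Finset.induction_on with
  | empty => simp only [Finset.sum_empty, D_zero]
  | insert i s hi ih => simp only [Finset.sum_insert hi, D_add, ih]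

theorem D_mul_left (l : List R) (a : R) (F : List R → R) (x : R) :
    D l (fun l => a * F l) x = a * D l F x := by
  induction l generalizing F x with
  | nil => simp only [D, mul_assoc]
  | cons y l ih => simp only [D]; rw [ih, mul_sub]

theorem D_smul [Algebra ℂ R] (l : List R) (c : ℂ) (F : List R → R) (x : R) :
    D l (fun l => c • F l) x = c • D l F x := by
  simp only [Algebra.smul_def, D_mul_left]

theorem D_map {Θ : R → R} (hΘ : ∀ x y, Θ (x * y) = Θ x * Θ y) {s : R} (hs : ∀ x, Θ x * s = s * x)
    (l : List R) (F : List R → R) (x : R) :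
    D l (fun l => F (l.map Θ) * s) x = D (l.map Θ) F (Θ x) * s := by
  induction l generalizing F x with
  | nil => simp only [D, List.map_nil, mul_assoc, hs]
  | cons y l ih =>
    simp only [D, List.map_cons, hΘ, sub_mul]
    rw [ih (fun l => F (Θ x :: l))]

/-- The prism operator. -/
def prism (Θ : R → R) (σ : R) : List R → (List R → R) → R
  | [], F => F [σ]
  | x :: l, F => F (σ :: Θ x :: l.map Θ) - prism Θ σ l fun l => F (x :: l)

variable {Θ : R → R} {σ s : R}

theorem prism_congr (l : List R) {F G : List R → R}
    (h : ∀ l', l'.length = l.length + 1 → F l' = G l') : prism Θ σ l F = prism Θ σ l G := by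
  induction l generalizing F G with
  | nil => exact h _ rfl
  | cons y l ih =>
    simp only [prism]
    rw [h _ (by simp), ih (G := fun l => G (y :: l)) fun l' hl' => h _ (by simp [hl'])]

theorem prism_add (l : List R) (F G : List R → R) :
    prism Θ σ l (fun l => F l + G l) = prism Θ σ l F + prism Θ σ l G := by
  induction l generalizing F G with
  | nil => rfl
  | cons y l ih => simp only [prism]; rw [ih]; abel

theorem prism_sub (l : List R) (F G : List R → R) :
    prism Θ σ l (fun l => F l - G l) = prism Θ σ l F - prism Θ σ l G := by
  induction l generalizing F G with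
  | nil => rfl
  | cons y l ih => simp only [prism]; rw [ih]; abel

theorem prism_mul_left (l : List R) (a : R) (F : List R → R) :
    prism Θ σ l (fun l => a * F l) = a * prism Θ σ l F := by
  induction l generalizing F with
  | nil => rfl
  | cons y l ih => simp only [prism]; rw [ih, mul_sub]

theorem prism_inner (hΘ : ∀ x y, Θ (x * y) = Θ x * Θ y) (hs : ∀ x, Θ x * s = s * x)
    (hσ : ∀ x, x * σ = σ * Θ x) (l : List R) (F : List R → R) (x : R) :
    (D (Θ x :: l.map Θ) F σ - prism Θ σ l fun l' => D l' F x) * s =
      F (x :: l) * σ * s - D l (fun l' => prism Θ σ l' F * s) x := by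
  induction l generalizing F x with
  | nil =>
    simp only [D, prism, List.map_nil, hσ, sub_mul, mul_assoc, hs]
    abel
  | cons y l ih =>
    have h1 := ih (fun l => F (x :: l)) y
    have h2 := D_map hΘ hs l (fun l => F (σ :: Θ x :: l)) y
    simp only [D, prism, List.map_cons, prism_sub, sub_mul, D_sub, h2, hσ, hΘ] at h1 ⊢
    rw [sub_eq_iff_eq_add] at h1
    rw [h1]
    abel

/-- The prism identity for a cocycle. -/
theorem prism_cocycle (hΘ : ∀ x y, Θ (x * y) = Θ x * Θ y) (hs : ∀ x, Θ x * s = s * x)
    (hσ : ∀ x, x * σ = σ * Θ x) {n : ℕ} {F : List R → R}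
    (hF : ∀ a l, l.length = n + 1 → D l F a = a * F l) (x : R) (l : List R) (hl : l.length = n) :
    σ * F (Θ x :: l.map Θ) * s - F (x :: l) * σ * s =
      x * (prism Θ σ l F * s) - D l (fun l' => prism Θ σ l' F * s) x := by
  have h1 := prism_inner hΘ hs hσ l F x
  rw [hF _ _ (by simp [hl]), prism_congr l (G := fun l' => x * F l')
    (fun l' hl' => hF _ _ (by rw [hl', hl])), prism_mul_left, sub_mul] at h1
  rw [← mul_assoc x]
  rw [sub_eq_iff_eq_add] at h1
  rw [h1]
  abel

end Ring

end Vale.Agent.P082
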